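import Mathlib

/-!
# P371, topology: a mod 2 Stokes formula for labels of the vertices of the cubical grid

`II β k v` is the sum, over all maximal flags of the cube with centre `v` (the odd coordinates are
the directions of the cube), of the cup product of the coboundaries of the labels `β 0, ..., β (k-1)`.
-/

namespace Vale.Agent.P371.Cube

open Finset


variable {ι : Type*} [Fintype ι] [DecidableEq ι]

/-- the odd coordinates -/
def odds (v : ι → ℤ) : Finset ι := univ.filter fun a => Odd (v a)

/-- move in the coordinate `a` -/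
def mv (v : ι → ℤ) (a : ι) (s : ℤ) : ι → ℤ := Function.update v a (v a + s)

/-- the two signs -/
def pm : Finset ℤ := {1, -1}

/-- the cochain -/
def II (β : ℕ → (ι → ℤ) → ZMod 2) : ℕ → (ι → ℤ) → ZMod 2
  | 0, _ => 1
  | k + 1, v => ∑ a ∈ odds v, ∑ s ∈ pm, (β k v + β k (mv v a s)) * II β k (mv v a s)

lemma mem_odds {v : ι → ℤ} {a : ι} : a ∈ odds v ↔ Odd (v a) := by simp [odds]

lemma mem_pm {s : ℤ} : s ∈ pm ↔ s = 1 ∨ s = -1 := by simp [pm]

lemma sum_pm {M : Type*} [AddCommMonoid M] (f : ℤ → M) : ∑ s ∈ pm, f s = f 1 + f (-1) := by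
  unfold pm
  rw [sum_pair (by norm_num)]

lemma z2 (x : ZMod 2) : x + x = 0 := by
  revert x; decide

lemma odd_pm {s : ℤ} (hs : s ∈ pm) : Odd s := by
  rcases mem_pm.1 hs with h | h <;> rw [h] <;> decide

lemma odds_mv {v : ι → ℤ} {a : ι} (ha : a ∈ odds v) {s : ℤ} (hs : s ∈ pm) :
    odds (mv v a s) = (odds v).erase a := by
  ext b
  rw [mem_odds, mem_erase, mem_odds]
  unfold mv
  by_cases h : b = a
  · subst h
    rw [Function.update_self]
    have h1 : Even (v b + s) := (mem_odds.1 ha).add_odd (odd_pm hs)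
    constructor
    · intro h2
      exact absurd h2 (Int.not_odd_iff_even.2 h1)
    · intro h2
      exact absurd rfl h2.1
  · rw [Function.update_of_ne h]
    exact ⟨fun h1 => ⟨h, h1⟩, fun h1 => h1.2⟩

lemma mv_comm (v : ι → ℤ) {a b : ι} (h : a ≠ b) (s t : ℤ) :
    mv (mv v a s) b t = mv (mv v b t) a s := by
  unfold mv
  rw [Function.update_of_ne h.symm, Function.update_of_ne h]
  exact Function.update_comm h _ _ _

lemma sum_sym_zero (O : Finset ι) (f : ι → ι → ZMod 2) (hf : ∀ a b, a ≠ b → f a b = f b a) :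
    ∑ a ∈ O, ∑ b ∈ O.erase a, f a b = 0 := by
  rw [Finset.sum_sigma']
  refine Finset.sum_involution (fun p _ => ⟨p.2, p.1⟩) ?_ ?_ ?_ ?_
  · rintro ⟨a, b⟩ hp
    simp only [mem_sigma, mem_erase] at hp
    show f a b + f b a = 0
    rw [hf a b (Ne.symm hp.2.1)]
    exact z2 _
  · rintro ⟨a, b⟩ hp _ h
    simp only [mem_sigma, mem_erase] at hp
    have h1 : b = a := congrArg Sigma.fst h
    exact hp.2.1 h1
  · rintro ⟨a, b⟩ hp
    simp only [mem_sigma, mem_erase] at hp ⊢
    exact ⟨hp.2.2, Ne.symm hp.2.1, hp.1⟩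
  · rintro ⟨a, b⟩ _
    rfl

/-- the cochain is a cocycle -/
theorem cocycle (β : ℕ → (ι → ℤ) → ZMod 2) (k : ℕ) (v : ι → ℤ) :
    ∑ a ∈ odds v, ∑ s ∈ pm, II β k (mv v a s) = 0 := by
  induction k generalizing v with
  | zero =>
    apply Finset.sum_eq_zero
    intro a _
    rw [sum_pm]
    exact z2 _
  | succ k ih =>
    have e1 : ∑ a ∈ odds v, ∑ s ∈ pm, II β (k + 1) (mv v a s)
        = ∑ a ∈ odds v, ∑ s ∈ pm, β k (mv v a s)
            * (∑ b ∈ odds (mv v a s), ∑ t ∈ pm, II β k (mv (mv v a s) b t))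
          + ∑ a ∈ odds v, ∑ b ∈ (odds v).erase a, ∑ s ∈ pm, ∑ t ∈ pm,
            β k (mv (mv v a s) b t) * II β k (mv (mv v a s) b t) := by
      rw [← Finset.sum_add_distrib]
      refine Finset.sum_congr rfl fun a ha => ?_
      rw [Finset.sum_comm (s := (odds v).erase a), ← Finset.sum_add_distrib]
      refine Finset.sum_congr rfl fun s hs => ?_
      show ∑ b ∈ odds (mv v a s), ∑ t ∈ pm,
        (β k (mv v a s) + β k (mv (mv v a s) b t)) * II β k (mv (mv v a s) b t) = _
      rw [← odds_mv ha hs, Finset.mul_sum, ← Finset.sum_add_distrib]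
      refine Finset.sum_congr rfl fun b _ => ?_
      rw [Finset.mul_sum, ← Finset.sum_add_distrib]
      refine Finset.sum_congr rfl fun t _ => ?_
      ring
    rw [e1]
    have e2 : ∑ a ∈ odds v, ∑ s ∈ pm, β k (mv v a s)
            * (∑ b ∈ odds (mv v a s), ∑ t ∈ pm, II β k (mv (mv v a s) b t)) = 0 := by
      refine Finset.sum_eq_zero fun a _ => Finset.sum_eq_zero fun s _ => ?_
      rw [ih, mul_zero]
    rw [e2, zero_add]
    apply sum_sym_zero
    intro a b hab
    rw [Finset.sum_comm]
    refine Finset.sum_congr rfl fun t _ => Finset.sum_congr rfl fun s _ => ?_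
    rw [mv_comm v hab]

/-! ### the closed cube -/

/-- `w` is in the closed cube with centre `v` -/
def InC (v w : ι → ℤ) : Prop := ∀ a, w a = v a ∨ (Odd (v a) ∧ |w a - v a| ≤ 1)

lemma InC.self (v : ι → ℤ) : InC v v := fun _ => Or.inl rfl

lemma InC.abs_le {v w : ι → ℤ} (h : InC v w) (a : ι) : |w a - v a| ≤ 1 := by
  rcases h a with h1 | h1
  · rw [h1]; simp
  · exact h1.2

lemma InC.of_even {v w : ι → ℤ} (h : InC v w) {a : ι} (ha : Even (v a)) : w a = v a := by
  rcases h a with h1 | h1
  · exact h1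
  · exact absurd h1.1 (Int.not_odd_iff_even.2 ha)

lemma mv_even {v : ι → ℤ} {a : ι} (ha : a ∈ odds v) {s : ℤ} (hs : s ∈ pm) :
    Even (mv v a s a) := by
  unfold mv
  rw [Function.update_self]
  exact (mem_odds.1 ha).add_odd (odd_pm hs)

lemma InC.mv {v w : ι → ℤ} {a : ι} (ha : a ∈ odds v) {s : ℤ} (hs : s ∈ pm)
    (h : InC (mv v a s) w) : InC v w := by
  intro b
  by_cases hb : b = a
  · subst hb
    right
    refine ⟨mem_odds.1 ha, ?_⟩
    rw [h.of_even (mv_even ha hs)]
    unfold Cube.mv
    rw [Function.update_self]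
    rcases mem_pm.1 hs with h1 | h1 <;> rw [h1] <;> simp
  · have h1 := h b
    unfold Cube.mv at h1
    rw [Function.update_of_ne hb] at h1
    exact h1

lemma inC_mv {v : ι → ℤ} {a : ι} (ha : a ∈ odds v) {s : ℤ} (hs : s ∈ pm) : InC v (mv v a s) :=
  InC.mv ha hs (InC.self _)

/-- the cochain vanishes if one of the labels is constant on the closed cube -/
theorem II_eq_zero {β : ℕ → (ι → ℤ) → ZMod 2} {k j : ℕ} (hj : j < k) {v : ι → ℤ} {c : ZMod 2}
    (h : ∀ w, InC v w → β j w = c) : II β k v = 0 := by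
  induction k generalizing v with
  | zero => omega
  | succ k ih =>
    show ∑ a ∈ odds v, ∑ s ∈ pm, (β k v + β k (mv v a s)) * II β k (mv v a s) = 0
    refine Finset.sum_eq_zero fun a ha => Finset.sum_eq_zero fun s hs => ?_
    by_cases hjk : j = k
    · subst hjk
      rw [h v (InC.self v), h _ (inC_mv ha hs), z2, zero_mul]
    · rw [ih (by omega) (fun w hw => h w (hw.mv ha hs)), mul_zero]

/-! ### reflections -/

/-- change the signs of the coordinates in `S` -/
def rfl' (S : Finset ι) (v : ι → ℤ) : ι → ℤ := fun a => if a ∈ S then -v a else v a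

lemma odds_rfl' (S : Finset ι) (v : ι → ℤ) : odds (rfl' S v) = odds v := by
  ext a
  rw [mem_odds, mem_odds]
  unfold rfl'
  split_ifs
  · exact odd_neg
  · rfl

lemma rfl'_mv (S : Finset ι) (v : ι → ℤ) (a : ι) (s : ℤ) :
    rfl' S (mv v a s) = mv (rfl' S v) a (if a ∈ S then -s else s) := by
  funext b
  unfold rfl' mv
  by_cases hb : b = a
  · subst hb
    simp only [Function.update_self]
    split_ifs <;> ring
  · simp only [Function.update_of_ne hb]

lemma sum_pm_neg {M : Type*} [AddCommMonoid M] (f : ℤ → M) :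
    ∑ s ∈ pm, f (-s) = ∑ s ∈ pm, f s := by
  rw [sum_pm, sum_pm, neg_neg, add_comm]

/-- reflections -/
theorem II_rfl' {β : ℕ → (ι → ℤ) → ZMod 2} {k : ℕ} {v : ι → ℤ} (S : Finset ι) (c : ℕ → ZMod 2)
    (h : ∀ j < k, ∀ w, InC v w → β j (rfl' S w) = β j w + c j) :
    II β k (rfl' S v) = II β k v := by
  induction k generalizing v with
  | zero => rfl
  | succ k ih =>
    show ∑ a ∈ odds (rfl' S v), ∑ s ∈ pm,
        (β k (rfl' S v) + β k (mv (rfl' S v) a s)) * II β k (mv (rfl' S v) a s)
      = ∑ a ∈ odds v, ∑ s ∈ pm, (β k v + β k (mv v a s)) * II β k (mv v a s)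
    rw [odds_rfl']
    refine Finset.sum_congr rfl fun a ha => ?_
    have e1 : ∑ s ∈ pm, (β k (rfl' S v) + β k (mv (rfl' S v) a s)) * II β k (mv (rfl' S v) a s)
        = ∑ s ∈ pm, (β k (rfl' S v) + β k (rfl' S (mv v a s))) * II β k (rfl' S (mv v a s)) := by
      by_cases haS : a ∈ S
      · rw [← sum_pm_neg]
        refine Finset.sum_congr rfl fun s _ => ?_
        rw [rfl'_mv, if_pos haS]
      · refine Finset.sum_congr rfl fun s _ => ?_
        rw [rfl'_mv, if_neg haS]
    rw [e1]
    refine Finset.sum_congr rfl fun s hs => ?_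
    rw [ih (fun j hj w hw => h j (by omega) w (hw.mv ha hs)), h k (by omega) v (InC.self v),
      h k (by omega) _ (inC_mv ha hs)]
    have e2 : β k v + c k + (β k (mv v a s) + c k) = β k v + β k (mv v a s) + (c k + c k) := by ring
    rw [e2, z2, add_zero]

/-! ### decoupled labels -/

theorem II_decoupled {β : ℕ → (ι → ℤ) → ZMod 2} (b : ℕ → ℤ → ZMod 2) (c : ℕ → ι) {k : ℕ}
    {v : ι → ℤ} (hc : ∀ i < k, ∀ j < k, c i = c j → i = j)
    (hv : odds v = (range k).image c)
    (h : ∀ j < k, ∀ w, InC v w → β j w = b j (w (c j))) :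
    II β k v = ∏ l ∈ range k, (b l (v (c l) + 1) + b l (v (c l) - 1)) := by
  induction k generalizing v with
  | zero => simp [II]
  | succ k ih =>
    have hck : c k ∈ odds v := by
      rw [hv]; exact mem_image_of_mem c (by simp)
    show ∑ a ∈ odds v, ∑ s ∈ pm, (β k v + β k (mv v a s)) * II β k (mv v a s) = _
    rw [Finset.sum_eq_single_of_mem (c k) hck]
    · have e1 : ∀ s ∈ pm, II β k (mv v (c k) s)
          = ∏ l ∈ range k, (b l (v (c l) + 1) + b l (v (c l) - 1)) := by
        intro s hs
        rw [ih (fun i hi j hj => hc i (by omega) j (by omega)) _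
          (fun j hj w hw => h j (by omega) w (hw.mv hck hs))]
        · refine Finset.prod_congr rfl fun l hl => ?_
          have hl' : l < k := by simpa using hl
          have : c l ≠ c k := fun h1 => by
            have := hc l (by omega) k (by omega) h1
            omega
          unfold mv
          rw [Function.update_of_ne this]
        · rw [odds_mv hck hs, hv, range_add_one, image_insert, erase_insert]
          intro h1
          rw [mem_image] at h1
          obtain ⟨l, hl, h2⟩ := h1
          have hl' : l < k := by simpa using hl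
          have := hc l (by omega) k (by omega) h2
          omega
      have e2 : ∀ s ∈ pm, β k (mv v (c k) s) = b k (v (c k) + s) := by
        intro s hs
        rw [h k (by omega) _ (inC_mv hck hs)]
        unfold mv
        rw [Function.update_self]
      have h1 : (1 : ℤ) ∈ pm := by simp [pm]
      have h2 : (-1 : ℤ) ∈ pm := by simp [pm]
      rw [sum_pm, e1 1 h1, e1 (-1) h2, e2 1 h1, e2 (-1) h2, h k (by omega) v (InC.self v),
        prod_range_succ, ← sub_eq_add_neg]
      generalize (∏ l ∈ range k, (b l (v (c l) + 1) + b l (v (c l) - 1))) = P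
      generalize b k (v (c k) + 1) = x
      generalize b k (v (c k) - 1) = y
      generalize b k (v (c k)) = z
      revert P x y z
      decide
    · intro a ha hne
      refine Finset.sum_eq_zero fun s hs => ?_
      have e1 : β k (mv v a s) = β k v := by
        rw [h k (by omega) _ (inC_mv ha hs), h k (by omega) v (InC.self v)]
        unfold mv
        rw [Function.update_of_ne (Ne.symm hne)]
      rw [e1, z2, zero_mul]

/-! ### Stokes on a box -/

/-- the odd integers between `m` and `M` -/
noncomputable def oi (m M : ℤ) : Finset ℤ := (Finset.Ioo m M).filter fun x => Odd x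

lemma mem_oi {m M x : ℤ} : x ∈ oi m M ↔ (m < x ∧ x < M) ∧ Odd x := by simp [oi]

lemma tele (f : ℤ → ZMod 2) {m M : ℤ} (hm : Even m) (hM : Even M) (h : m ≤ M) :
    ∑ x ∈ oi m M, (f (x + 1) + f (x - 1)) = f M + f m := by
  obtain ⟨n, hn⟩ : ∃ n : ℕ, M = m + 2 * n := by
    obtain ⟨k, hk⟩ := (hM.sub hm)
    refine ⟨k.toNat, ?_⟩
    omega
  subst hn
  clear h hM
  induction n with
  | zero =>
    have : oi m (m + 2 * ((0 : ℕ) : ℤ)) = ∅ := by
      ext x
      rw [mem_oi]
      simp only [Nat.cast_zero, mul_zero, add_zero]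
      constructor
      · intro h; omega
      · intro h; simp at h
    rw [this]
    simp only [Nat.cast_zero, mul_zero, add_zero, sum_empty]
    exact (z2 _).symm
  | succ n ih =>
    have : oi m (m + 2 * ((n + 1 : ℕ) : ℤ)) = insert (m + 2 * n + 1) (oi m (m + 2 * n)) := by
      ext x
      rw [mem_insert, mem_oi, mem_oi]
      push_cast
      constructor
      · rintro ⟨⟨h1, h2⟩, h3⟩
        by_cases hx : x = m + 2 * n + 1
        · exact Or.inl hx
        · right
          refine ⟨⟨h1, ?_⟩, h3⟩
          obtain ⟨k, hk⟩ := h3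
          obtain ⟨l, hl⟩ := hm
          omega
      · rintro (h1 | ⟨⟨h1, h2⟩, h3⟩)
        · subst h1
          refine ⟨⟨by omega, by omega⟩, ?_⟩
          obtain ⟨l, hl⟩ := hm
          exact ⟨l + n, by omega⟩
        · exact ⟨⟨h1, by omega⟩, h3⟩
    rw [this, sum_insert, ih]
    · have e1 : m + 2 * (n : ℤ) + 1 + 1 = m + 2 * ((n + 1 : ℕ) : ℤ) := by push_cast; ring
      have e2 : m + 2 * (n : ℤ) + 1 - 1 = m + 2 * n := by ring
      rw [e1, e2]
      generalize f (m + 2 * ((n + 1 : ℕ) : ℤ)) = x
      generalize f (m + 2 * (n : ℤ)) = y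
      generalize f m = z
      revert x y z
      decide
    · rw [mem_oi]
      intro h
      omega

lemma sum_pi_split {α : Type*} [AddCommMonoid α] (O : ι → Finset ℤ) (a : ι) (t : ℤ)
    (H : (ι → ℤ) → α) :
    ∑ v ∈ Fintype.piFinset O, H v
      = ∑ w ∈ Fintype.piFinset (Function.update O a {t}), ∑ x ∈ O a, H (Function.update w a x) := by
  rw [← Finset.sum_product']
  refine Finset.sum_nbij' (fun v => (Function.update v a t, v a))
    (fun p => Function.update p.1 a p.2) ?_ ?_ ?_ ?_ ?_
  · intro v hv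
    rw [Fintype.mem_piFinset] at hv
    rw [mem_product, Fintype.mem_piFinset]
    refine ⟨fun b => ?_, hv a⟩
    by_cases hb : b = a
    · subst hb; simp
    · simp only [Function.update_of_ne hb]
      exact hv b
  · rintro ⟨w, x⟩ hp
    rw [mem_product, Fintype.mem_piFinset] at hp
    rw [Fintype.mem_piFinset]
    intro b
    by_cases hb : b = a
    · subst hb
      simp only [Function.update_self]
      exact hp.2
    · have := hp.1 b
      simp only [Function.update_of_ne hb] at this ⊢
      exact this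
  · intro v _
    simp
  · rintro ⟨w, x⟩ hp
    rw [mem_product, Fintype.mem_piFinset] at hp
    have h1 : w a = t := by
      have := hp.1 a
      simpa using this
    refine Prod.ext ?_ ?_
    · simp only [Function.update_idem]
      rw [← h1, Function.update_eq_self]
    · simp
  · intro v _
    simp

/-- sum over the facets at the level `t` in direction `a` -/
noncomputable def SA (O : ι → Finset ℤ) (F : (ι → ℤ) → ZMod 2) (a : ι) (t : ℤ) : ZMod 2 :=
  ∑ v ∈ Fintype.piFinset (Function.update O a {t}), F v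

lemma SA_eq (O : ι → Finset ℤ) (F : (ι → ℤ) → ZMod 2) (a : ι) (t t' : ℤ) :
    SA O F a t' = ∑ w ∈ Fintype.piFinset (Function.update O a {t}), F (Function.update w a t') := by
  unfold SA
  rw [sum_pi_split (Function.update O a {t'}) a t]
  simp

/-- Stokes' formula mod 2 -/
theorem stokes (β : ℕ → (ι → ℤ) → ZMod 2) (k : ℕ) {m M : ι → ℤ} (hm : ∀ a, Even (m a))
    (hM : ∀ a, Even (M a)) (h : ∀ a, m a ≤ M a) :
    ∑ a, (SA (fun b => oi (m b) (M b)) (II β k) a (M a)
      + SA (fun b => oi (m b) (M b)) (II β k) a (m a)) = 0 := by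
  set O : ι → Finset ℤ := fun b => oi (m b) (M b) with hO
  have h0 : ∑ v ∈ Fintype.piFinset O, ∑ a, ∑ s ∈ pm, II β k (mv v a s) = 0 := by
    refine Finset.sum_eq_zero fun v hv => ?_
    rw [Fintype.mem_piFinset] at hv
    have e : odds v = univ := by
      ext a
      rw [mem_odds]
      simp only [mem_univ, iff_true]
      exact (mem_oi.1 (hv a)).2
    rw [← e]
    exact cocycle β k v
  rw [Finset.sum_comm] at h0
  rw [← h0]
  refine Finset.sum_congr rfl fun a _ => ?_
  rw [sum_pi_split O a 0, SA_eq O _ a 0 (M a), SA_eq O _ a 0 (m a), ← Finset.sum_add_distrib]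
  refine Finset.sum_congr rfl fun w _ => ?_
  rw [← tele (fun x => II β k (Function.update w a x)) (hm a) (hM a) (h a)]
  refine Finset.sum_congr rfl fun x _ => ?_
  rw [sum_pm]
  unfold mv
  simp only [Function.update_self, Function.update_idem, ← sub_eq_add_neg]

/-- sum over a box of a decoupled product -/
theorem sum_decoupled {m M : ι → ℤ} (hm : ∀ a, Even (m a)) (hM : ∀ a, Even (M a))
    (h : ∀ a, m a ≤ M a) (b : ι → ℤ → ZMod 2) :
    ∑ v ∈ Fintype.piFinset (fun a => oi (m a) (M a)), ∏ a, (b a (v a + 1) + b a (v a - 1))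
      = ∏ a, (b a (M a) + b a (m a)) := by
  rw [← Finset.prod_univ_sum (fun a => oi (m a) (M a)) (fun a x => b a (x + 1) + b a (x - 1))]
  exact Finset.prod_congr rfl fun a _ => tele (b a) (hm a) (hM a) (h a)

end Vale.Agent.P371.Cube
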