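import Mathlib

/-!
# P371, topology: the model homotopy (module MODEL) -- statement
-/

namespace Vale.Agent.P371.Cube

/-- (row `i`, column `l ≤ i`) -/
abbrev Ix (N : ℕ) := (i : Fin N) × Fin (i.val + 1)

/-- the diagonal index -/
def dgi {N : ℕ} (i : Fin N) : Ix N := ⟨i, Fin.last i.val⟩

/-- the column, as an element of `Fin N` -/
def col {N : ℕ} (p : Ix N) : Fin N :=
  ⟨p.2.val, by have := p.2.isLt; have := p.1.isLt; omega⟩

/-- change of the sign of the row `j` -/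
def rowN {N : ℕ} (j : Fin N) (w : Ix N → ℝ) : Ix N → ℝ := fun p => if p.1 = j then - w p else w p

/-- Module MODEL: an explicit homotopy from decoupled functions (time 0) to `1 - P` (time 3) -/
def S_MODEL : Prop :=
  ∀ (N : ℕ) (P : ((i : Fin N) → Fin (i.val + 1) → ℝ) → Matrix (Fin N) (Fin N) ℝ), 0 < N →
  Continuous P → (∀ w, (P w).IsSymm) →
  (∀ (s : Fin N → ℝ), (∀ i, s i = 1 ∨ s i = -1) → ∀ w i j,
    P (fun i l => s i * w i l) i j = s i * s j * P w i j) →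
  (∀ w i, 0 ≤ P w i i) → (∀ w i, w i = 0 → P w i i = 0) →
  (∃ R : ℝ, ∀ w, R ≤ ‖w‖ → (N : ℝ) < (P w).trace) →
  ∃ (R c : ℝ) (F : ℝ → (Ix N → ℝ) → (Ix N → ℝ)), 0 < R ∧ 0 < c ∧ 1 < c * R ^ 2 ∧
    Continuous (fun q : ℝ × (Ix N → ℝ) => F q.1 q.2) ∧
    -- time 0: decoupled
    (∀ w p, F 0 w p = if p = dgi p.1 then 1 - c * w p ^ 2 else - w p) ∧
    -- times 0 to 2: no zeros on the walls and on the outer boundary
    (∀ t ∈ Set.Icc (0 : ℝ) 2, ∀ w, (∀ i, 0 ≤ w (dgi i)) → F t w = 0 →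
      (∀ i, 0 < w (dgi i)) ∧ ‖w‖ ≠ R) ∧
    -- times 2 to 3: no zeros on the outer boundary and where a row vanishes
    (∀ t ∈ Set.Icc (2 : ℝ) 3, ∀ w, F t w = 0 → ‖w‖ ≠ R ∧ ∀ i, ∃ p : Ix N, p.1 = i ∧ w p ≠ 0) ∧
    -- symmetry from time 1 on
    (∀ t, 1 ≤ t → ∀ j w p,
      F t (rowN j w) p = if (p.1 = j ↔ col p = j) then F t w p else - F t w p) ∧
    -- end
    (∀ w, F 3 w = 0 → ∃ w', P w' = 1)

end Vale.Agent.P371.Cube
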