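import Mathlib
import Vale.Agent.P371.Top.TDefs

/-!
# P371, topology: the model homotopy (module MODEL)
-/

namespace Vale.Agent.P371.Cube

open Finset

namespace Mdl

variable {N : ℕ}

/-- the entry `(i, l)`, zero above the diagonal -/
def en (w : Ix N → ℝ) (i l : Fin N) : ℝ :=
  if h : l.val < i.val + 1 then w ⟨i, ⟨l.val, h⟩⟩ else 0

/-- truncated Gram sums -/
noncomputable def T (w : Ix N → ℝ) (i j : Fin N) : ℝ :=
  ∑ l ∈ univ.filter (fun l : Fin N => l < j), en w i l * en w j l

noncomputable def H (c s : ℝ) (w : Ix N → ℝ) (p : Ix N) : ℝ :=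
  if p = dgi p.1 then 1 - c * w p ^ 2 - c * s * T w p.1 p.1
  else -((1 - s) + s * c * w (dgi (col p))) * w p - c * s * T w p.1 (col p)

/-- the curried array -/
def cur (w : Ix N → ℝ) : (i : Fin N) → Fin (i.val + 1) → ℝ := fun i l => w ⟨i, l⟩

noncomputable def Fm (P : ((i : Fin N) → Fin (i.val + 1) → ℝ) → Matrix (Fin N) (Fin N) ℝ) (c t : ℝ)
    (w : Ix N → ℝ) (p : Ix N) : ℝ :=
  (1 - max (t - 2) 0) * H c (min t 1) w p
    + max (t - 2) 0 * ((if p = dgi p.1 then 1 else 0) - P (cur w) p.1 (col p))

lemma col_dgi (i : Fin N) : col (dgi i) = i := rfl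

lemma en_self (w : Ix N → ℝ) (i : Fin N) : en w i i = w (dgi i) := by
  unfold en
  rw [dif_pos (Nat.lt_succ_self _)]
  rfl

lemma en_col (w : Ix N → ℝ) (p : Ix N) : en w p.1 (col p) = w p := by
  unfold en
  rw [dif_pos (show (col p).val < p.1.val + 1 from p.2.isLt)]
  rfl

/-- the index of the entry `(i, l)`, `l ≤ i` -/
def ix (i l : Fin N) (h : l ≤ i) : Ix N := ⟨i, ⟨l.val, Nat.lt_succ_of_le h⟩⟩

lemma ix_ne {i l : Fin N} (h : l < i) : ix i l h.le ≠ dgi i := by
  intro h1
  have h2 : (ix i l h.le).2 = (dgi i).2 := by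
    have := congrArg (fun p : Ix N => col p) h1
    have h3 : l = i := by
      have e1 : col (ix i l h.le) = l := rfl
      have e2 : col (dgi i) = i := rfl
      simpa [e1, e2] using this
    exact absurd h3 (ne_of_lt h)
  have h3 : l.val = i.val := by simpa [ix, dgi, Fin.ext_iff] using h2
  have h4 : l.val < i.val := h
  omega

lemma en_ix (w : Ix N → ℝ) {i l : Fin N} (h : l ≤ i) : en w i l = w (ix i l h) := by
  unfold en
  rw [dif_pos (Nat.lt_succ_of_le h)]
  rfl

lemma col_le (p : Ix N) : col p ≤ p.1 := by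
  rw [Fin.le_def]
  have := p.2.isLt
  simp only [col]
  omega

lemma eq_dgi_iff (p : Ix N) : p = dgi p.1 ↔ col p = p.1 := by
  constructor
  · intro h
    have h2 := congrArg (fun p : Ix N => col p) h
    simpa [col_dgi] using h2
  · intro h
    obtain ⟨i, l⟩ := p
    have h2 : l.val = i.val := by simpa [col, Fin.ext_iff] using h
    simp only [dgi]
    congr 1
    exact Fin.ext (by simpa using h2)

lemma en_cont (i l : Fin N) : Continuous fun w : Ix N → ℝ => en w i l := by
  unfold en
  by_cases h : l.val < i.val + 1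
  · simp only [h, dite_true]; exact continuous_apply _
  · simp only [h, dite_false]; exact continuous_const

lemma T_cont (i j : Fin N) : Continuous fun w : Ix N → ℝ => T w i j :=
  continuous_finsetSum _ fun l _ => (en_cont i l).mul (en_cont j l)

lemma H_cont (c : ℝ) (p : Ix N) :
    Continuous fun q : ℝ × (Ix N → ℝ) => H c (min q.1 1) q.2 p := by
  have h1 : Continuous fun q : ℝ × (Ix N → ℝ) => min q.1 1 := continuous_fst.min continuous_const
  have h2 : ∀ p : Ix N, Continuous fun q : ℝ × (Ix N → ℝ) => q.2 p := fun p =>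
    (continuous_apply p).comp continuous_snd
  have h3 : ∀ i j : Fin N, Continuous fun q : ℝ × (Ix N → ℝ) => T q.2 i j := fun i j =>
    (T_cont i j).comp continuous_snd
  unfold H
  split_ifs with h
  · exact (continuous_const.sub (continuous_const.mul ((h2 p).pow 2))).sub
      ((continuous_const.mul h1).mul (h3 _ _))
  · exact ((((continuous_const.sub h1).add ((h1.mul continuous_const).mul (h2 _))).neg).mul
      (h2 p)).sub ((continuous_const.mul h1).mul (h3 _ _))

lemma cur_cont : Continuous fun w : Ix N → ℝ => cur w :=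
  continuous_pi fun i => continuous_pi fun l => continuous_apply _

lemma norm_cur (w : Ix N → ℝ) : ‖cur w‖ = ‖w‖ := by
  apply le_antisymm
  · rw [pi_norm_le_iff_of_nonneg (norm_nonneg _)]
    intro i
    rw [pi_norm_le_iff_of_nonneg (norm_nonneg _)]
    intro l
    exact norm_le_pi_norm w ⟨i, l⟩
  · rw [pi_norm_le_iff_of_nonneg (norm_nonneg _)]
    rintro ⟨i, l⟩
    exact (norm_le_pi_norm (cur w i) l).trans (norm_le_pi_norm (cur w) i)

lemma T_zero {w : Ix N → ℝ} {i j : Fin N} (h : ∀ l, l < j → en w j l = 0) : T w i j = 0 :=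
  Finset.sum_eq_zero fun l hl => by
    rw [h l (Finset.mem_filter.1 hl).2, mul_zero]

/-- the sign of the row `i` under the flip of the row `k` -/
def sg (k i : Fin N) : ℝ := if i = k then -1 else 1

lemma sg_or (k i : Fin N) : sg k i = 1 ∨ sg k i = -1 := by
  unfold sg; split_ifs <;> simp

lemma sg_sq (k i : Fin N) : sg k i * sg k i = 1 := by
  rcases sg_or k i with h | h <;> rw [h] <;> norm_num

lemma rowN_eq (k : Fin N) (w : Ix N → ℝ) (p : Ix N) : rowN k w p = sg k p.1 * w p := by
  unfold rowN sg; split_ifs <;> ring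

lemma en_row (k : Fin N) (w : Ix N → ℝ) (i l : Fin N) : en (rowN k w) i l = sg k i * en w i l := by
  unfold en
  split_ifs with h
  · rw [rowN_eq]
  · simp

lemma T_row (k : Fin N) (w : Ix N → ℝ) (i j : Fin N) :
    T (rowN k w) i j = sg k i * sg k j * T w i j := by
  unfold T
  rw [Finset.mul_sum]
  exact Finset.sum_congr rfl fun l _ => by rw [en_row, en_row]; ring

lemma cur_row (k : Fin N) (w : Ix N → ℝ) : cur (rowN k w) = fun i l => sg k i * cur w i l := by
  funext i l
  exact rowN_eq k w ⟨i, l⟩

/-- zeros of the first part of the homotopy -/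
lemma zeros {c s : ℝ} (hc : 0 < c) (hs : 0 ≤ s) (hs1 : s ≤ 1) {w : Ix N → ℝ}
    (hw : ∀ i, 0 ≤ w (dgi i)) (h : ∀ p, H c s w p = 0) (j : Fin N) :
    0 < w (dgi j) ∧ c * w (dgi j) ^ 2 = 1 ∧ ∀ i, j < i → en w i j = 0 := by
  induction j using WellFoundedLT.induction with
  | ind j ih =>
    have hT : ∀ i, T w i j = 0 := fun i => T_zero fun l hl => (ih l hl).2.2 j hl
    have h1 := h (dgi j)
    have e1 : dgi j = dgi (dgi j).1 := rfl
    rw [H, if_pos e1] at h1
    have e2 : T w (dgi j).1 (dgi j).1 = 0 := hT _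
    rw [e2, mul_zero, sub_zero] at h1
    have h2 : c * w (dgi j) ^ 2 = 1 := by linarith
    have h3 : 0 < w (dgi j) := by
      rcases (hw j).eq_or_lt with h4 | h4
      · rw [← h4] at h2; norm_num at h2
      · exact h4
    refine ⟨h3, h2, fun i hi => ?_⟩
    have h4 := h (ix i j hi.le)
    have e3 : ¬ ix i j hi.le = dgi (ix i j hi.le).1 := ix_ne hi
    rw [H, if_neg e3] at h4
    have e4 : col (ix i j hi.le) = j := rfl
    rw [e4, hT, mul_zero, sub_zero] at h4
    rw [en_ix w hi.le]
    have h5 : 0 < (1 - s) + s * c * w (dgi j) := by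
      rcases hs1.eq_or_lt with h6 | h6
      · rw [h6]
        have : 0 < c * w (dgi j) := mul_pos hc h3
        linarith
      · have : 0 ≤ s * c * w (dgi j) := by positivity
        linarith
    rcases mul_eq_zero.1 h4 with h6 | h6
    · linarith
    · exact h6

lemma sq_le_sum (w : Ix N → ℝ) (p : Ix N) :
    w p ^ 2 ≤ ∑ i, (w (dgi i) ^ 2 + T w i i) := by
  have hT : ∀ i, 0 ≤ T w i i := fun i => Finset.sum_nonneg fun l _ => mul_self_nonneg _
  have h1 : w (dgi p.1) ^ 2 + T w p.1 p.1 ≤ ∑ i, (w (dgi i) ^ 2 + T w i i) :=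
    Finset.single_le_sum (f := fun i => w (dgi i) ^ 2 + T w i i)
      (fun i _ => add_nonneg (sq_nonneg _) (hT i)) (Finset.mem_univ p.1)
  refine le_trans ?_ h1
  rcases (col_le p).eq_or_lt with h2 | h2
  · rw [← (eq_dgi_iff p).2 h2]
    have := hT p.1
    linarith
  · have h3 : en w p.1 (col p) * en w p.1 (col p) ≤ T w p.1 p.1 :=
      Finset.single_le_sum (f := fun l => en w p.1 l * en w p.1 l)
        (fun l _ => mul_self_nonneg _) (Finset.mem_filter.2 ⟨Finset.mem_univ _, h2⟩)
    rw [en_col] at h3
    have := sq_nonneg (w (dgi p.1))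
    nlinarith

end Mdl

open Mdl in
theorem model : S_MODEL := by
  intro N P hN hc hs heq h0 hz ⟨R0, hR0⟩
  set R : ℝ := max R0 1 with hR
  have hR1 : 1 ≤ R := le_max_right _ _
  have hRpos : 0 < R := by linarith
  set c : ℝ := (N + 1) / R ^ 2 with hcdef
  have hcpos : 0 < c := by positivity
  have hcR : c * R ^ 2 = N + 1 := by
    rw [hcdef]; field_simp
  have hNR : (0 : ℝ) < N := by exact_mod_cast hN
  have small : ∀ w : Ix N → ℝ, (∀ p, |w p| < R) → ‖w‖ ≠ R := by
    intro w hw h
    have : ‖w‖ < R := by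
      rw [pi_norm_lt_iff hRpos]
      intro p
      rw [Real.norm_eq_abs]
      exact hw p
    linarith
  refine ⟨R, c, Fm P c, hRpos, hcpos, by rw [hcR]; linarith, ?_, ?_, ?_, ?_, ?_, ?_⟩
  · -- continuity
    refine continuous_pi fun p => ?_
    unfold Fm
    have h1 : Continuous fun q : ℝ × (Ix N → ℝ) => max (q.1 - 2) 0 :=
      (continuous_fst.sub continuous_const).max continuous_const
    have h2 : Continuous fun q : ℝ × (Ix N → ℝ) => P (cur q.2) p.1 (col p) :=
      (hc.matrix_elem p.1 (col p)).comp (cur_cont.comp continuous_snd)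
    exact ((continuous_const.sub h1).mul (H_cont c p)).add (h1.mul (continuous_const.sub h2))
  · -- time 0
    intro w p
    have e1 : max ((0 : ℝ) - 2) 0 = 0 := by norm_num
    have e2 : min (0 : ℝ) 1 = 0 := by norm_num
    unfold Fm H
    rw [e1, e2]
    split_ifs <;> ring
  · -- times 0 to 2
    rintro t ⟨ht0, ht2⟩ w hw h
    have e1 : max (t - 2) 0 = 0 := max_eq_right (by linarith)
    have hH : ∀ p, H c (min t 1) w p = 0 := by
      intro p
      have h1 := congrFun h p
      simp only [Fm, Pi.zero_apply] at h1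
      rw [e1] at h1
      simpa using h1
    have hz' := zeros hcpos (le_min ht0 zero_le_one) (min_le_right _ _) hw hH
    refine ⟨fun i => (hz' i).1, small w fun p => ?_⟩
    have h2 : c * w p ^ 2 ≤ 1 := by
      rcases (col_le p).eq_or_lt with h2 | h2
      · rw [(eq_dgi_iff p).2 h2, (hz' p.1).2.1]
      · have h3 := (hz' (col p)).2.2 p.1 h2
        rw [en_col] at h3
        rw [h3]
        norm_num
    have h3 : w p ^ 2 < R ^ 2 := by
      by_contra hcon
      push Not at hcon
      have h4 : c * R ^ 2 ≤ c * w p ^ 2 := mul_le_mul_of_nonneg_left hcon hcpos.le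
      linarith
    exact abs_lt_of_sq_lt_sq h3 hRpos.le
  · -- times 2 to 3
    rintro t ⟨ht2, ht3⟩ w h
    have e1 : max (t - 2) 0 = t - 2 := max_eq_left (by linarith)
    have e2 : min t 1 = 1 := min_eq_right (by linarith)
    have hF : ∀ p, (1 - (t - 2)) * H c 1 w p
        + (t - 2) * ((if p = dgi p.1 then 1 else 0) - P (cur w) p.1 (col p)) = 0 := by
      intro p
      have h1 := congrFun h p
      simp only [Fm, Pi.zero_apply] at h1
      rw [e1, e2] at h1
      exact h1
    have hFd : ∀ i, (1 - (t - 2)) * (1 - c * (w (dgi i) ^ 2 + T w i i))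
        + (t - 2) * (1 - P (cur w) i i) = 0 := by
      intro i
      have h1 := hF (dgi i)
      have e3 : dgi i = dgi (dgi i).1 := rfl
      rw [H, if_pos e3, if_pos e3] at h1
      have e4 : col (dgi i) = i := rfl
      have e5 : (dgi i).1 = i := rfl
      rw [e4, e5] at h1
      linarith
    constructor
    · intro hwR
      have h1 : ∃ p, R ≤ |w p| := by
        by_contra hcon
        push Not at hcon
        exact small w hcon hwR
      obtain ⟨p, hp⟩ := h1
      have h2 : R ^ 2 ≤ w p ^ 2 := by
        rw [← sq_abs (w p)]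
        exact pow_le_pow_left₀ hRpos.le hp 2
      have h3 := sq_le_sum w p
      have h4 : (N : ℝ) + 1 ≤ c * ∑ i, (w (dgi i) ^ 2 + T w i i) := by
        rw [← hcR]
        exact mul_le_mul_of_nonneg_left (h2.trans h3) hcpos.le
      have h5 : (N : ℝ) < (P (cur w)).trace :=
        hR0 _ (by rw [norm_cur, hwR]; exact le_max_left _ _)
      have h6 : ∑ i, ((1 - (t - 2)) * (1 - c * (w (dgi i) ^ 2 + T w i i))
        + (t - 2) * (1 - P (cur w) i i)) = 0 := Finset.sum_eq_zero fun i _ => hFd i
      rw [Finset.sum_add_distrib, ← Finset.mul_sum, ← Finset.mul_sum, Finset.sum_sub_distrib,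
        Finset.sum_sub_distrib, ← Finset.mul_sum] at h6
      have h7 : ∑ i, P (cur w) i i = (P (cur w)).trace := rfl
      rw [h7] at h6
      simp only [Finset.sum_const, Finset.card_univ, Fintype.card_fin, nsmul_eq_mul, mul_one] at h6
      set A := c * ∑ i, (w (dgi i) ^ 2 + T w i i)
      set B := (P (cur w)).trace
      rcases ht2.eq_or_lt with h8 | h8
      · rw [← h8] at h6
        linarith
      · have h9 : 0 < (t - 2) * (B - N) := mul_pos (by linarith) (by linarith)
        have h10 : 0 ≤ (1 - (t - 2)) * (A - N) := mul_nonneg (by linarith) (by linarith)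
        nlinarith
    · intro i
      by_contra hcon
      push Not at hcon
      have h1 : T w i i = 0 := by
        refine T_zero fun l _ => ?_
        unfold en
        split_ifs with h2
        · exact hcon _ rfl
        · rfl
      have h2 : w (dgi i) = 0 := hcon _ rfl
      have h3 : P (cur w) i i = 0 := hz _ i (by
        funext l
        exact hcon ⟨i, l⟩ rfl)
      have h4 := hFd i
      rw [h1, h2, h3] at h4
      norm_num at h4
  · -- symmetry
    intro t ht j w p
    have e2 : min t 1 = 1 := min_eq_right ht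
    have hP := heq (sg j) (sg_or j) (cur w) p.1 (col p)
    have hσ : (if (p.1 = j ↔ col p = j) then Fm P c t w p else -Fm P c t w p)
        = sg j p.1 * sg j (col p) * Fm P c t w p := by
      unfold sg
      by_cases h1 : p.1 = j <;> by_cases h2 : col p = j <;> simp [h1, h2]
    rw [hσ]
    unfold Fm
    rw [cur_row, hP, e2]
    unfold H
    by_cases hd : p = dgi p.1
    · have h1 : col p = p.1 := (eq_dgi_iff p).1 hd
      rw [if_pos hd, if_pos hd, if_pos hd, h1, sg_sq, rowN_eq, T_row, sg_sq, mul_pow,
        pow_two (sg j p.1), sg_sq]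
      ring
    · rw [if_neg hd, if_neg hd, if_neg hd, rowN_eq, rowN_eq, T_row]
      have e5 : (dgi (col p)).1 = col p := rfl
      rw [e5]
      ring
  · -- end
    intro w h
    refine ⟨cur w, ?_⟩
    have e1 : max ((3 : ℝ) - 2) 0 = 1 := by norm_num
    have hF : ∀ p : Ix N, P (cur w) p.1 (col p) = if p = dgi p.1 then 1 else 0 := by
      intro p
      have h1 := congrFun h p
      simp only [Fm, Pi.zero_apply] at h1
      rw [e1] at h1
      linarith
    have hl : ∀ i j : Fin N, j ≤ i → P (cur w) i j = if i = j then 1 else 0 := by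
      intro i j hij
      have h1 := hF (ix i j hij)
      have e3 : col (ix i j hij) = j := rfl
      have e4 : (ix i j hij).1 = i := rfl
      rw [e3] at h1
      rw [show P (cur w) i j = P (cur w) (ix i j hij).1 j from rfl, h1]
      have h5 : (ix i j hij = dgi (ix i j hij).1) ↔ i = j := by
        rw [eq_dgi_iff, e3, e4]
        exact eq_comm
      by_cases h6 : i = j
      · rw [if_pos (h5.2 h6), if_pos h6]
      · rw [if_neg (fun h7 => h6 (h5.1 h7)), if_neg h6]
    ext i j
    rw [Matrix.one_apply]
    rcases le_total j i with hij | hij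
    · exact hl i j hij
    · have h1 := (hs (cur w)).apply i j
      rw [← h1, hl j i hij]
      by_cases h6 : i = j
      · subst h6; rfl
      · rw [if_neg h6, if_neg (Ne.symm h6)]

end Vale.Agent.P371.Cube
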