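import Vale.Agent.P371.Top.Cube
import Vale.Agent.P371.Top.TDefs

/-!
# P371, topology: from the model homotopy to the existence of a solution
-/

namespace Vale.Agent.P371.Cube

open Finset

variable {N : ℕ}

/-! ### tie-break -/

open Classical in
/-- sign of a vector in the lexicographic order -/
noncomputable def tau {m : ℕ} (x : Fin m → ℤ) : ZMod 2 := if toLex x < 0 then 1 else 0

lemma tau_neg {m : ℕ} (x : Fin m → ℤ) (hx : x ≠ 0) : tau (-x) = tau x + 1 := by
  unfold tau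
  have h0 : toLex x ≠ 0 := by
    intro h
    exact hx (by simpa using h)
  have h1 : toLex (-x) < 0 ↔ 0 < toLex x := by
    rw [toLex_neg]; exact neg_lt_zero
  rcases lt_trichotomy (toLex x) 0 with h | h | h
  · have h2 : toLex x < 0 := h
    have h3 : ¬ toLex (-x) < 0 := by
      intro h4
      exact absurd (h1.1 h4) (not_lt.2 h.le)
    rw [if_pos h2, if_neg h3]; decide
  · exact absurd h h0
  · have h2 : ¬ toLex x < 0 := not_lt.2 (le_of_lt h)
    have h3 : toLex (-x) < 0 := h1.2 h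
    rw [if_neg h2, if_pos h3]; decide

/-- row `i` of a vertex -/
def rowv (i : Fin N) (v : Option (Ix N) → ℤ) : Fin (i.val + 1) → ℤ := fun l => v (some ⟨i, l⟩)

/-! ### grid -/

/-- the point of a vertex -/
noncomputable def pt (n : ℕ) (R : ℝ) (v : Option (Ix N) → ℤ) : ℝ × (Ix N → ℝ) :=
  (3 * (v none : ℝ) / (2 * n), fun p => R * (v (some p) : ℝ) / (2 * n))

/-- lower ends of the box -/
def lo (n : ℕ) (a : Option (Ix N)) : ℤ :=
  match a with
  | none => 0
  | some p => if p = dgi p.1 then 0 else -(2 * n)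

/-- upper ends of the box -/
def hi (n : ℕ) (_ : Option (Ix N)) : ℤ := 2 * n

open Classical in
/-- the labels -/
noncomputable def lab (n : ℕ) (R : ℝ) (F : ℝ → (Ix N → ℝ) → (Ix N → ℝ)) (p : Ix N)
    (v : Option (Ix N) → ℤ) : ZMod 2 :=
  if F (pt n R v).1 (pt n R v).2 p < 0 then 1
  else if 0 < F (pt n R v).1 (pt n R v).2 p then 0
  else if 0 < v none then tau (rowv p.1 v) + tau (rowv (col p) v) else 0

open Classical in
/-- the labels, numbered by `ℕ` -/
noncomputable def labk (n : ℕ) (R : ℝ) (F : ℝ → (Ix N → ℝ) → (Ix N → ℝ)) (k : ℕ)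
    (v : Option (Ix N) → ℤ) : ZMod 2 :=
  if h : k < Fintype.card (Ix N) then lab n R F ((Fintype.equivFin (Ix N)).symm ⟨k, h⟩) v else 0

lemma lo_even (n : ℕ) (a : Option (Ix N)) : Even (lo n a) := by
  unfold lo
  rcases a with _ | p
  · exact Even.zero
  · dsimp only
    split_ifs
    · exact Even.zero
    · exact (even_two_mul _).neg

lemma hi_even (n : ℕ) (a : Option (Ix N)) : Even (hi n a) := even_two_mul _

lemma lo_le_hi (n : ℕ) (a : Option (Ix N)) : lo n a ≤ hi n a := by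
  unfold lo hi
  rcases a with _ | p
  · dsimp only; omega
  · dsimp only
    split_ifs <;> omega

/-- vertices of the box -/
def Bx (n : ℕ) (v : Option (Ix N) → ℤ) : Prop := ∀ a, lo n a ≤ v a ∧ v a ≤ hi n a

lemma Bx.inC {n : ℕ} {v w : Option (Ix N) → ℤ} (h : Bx n v) (hw : InC v w) : Bx n w := by
  intro a
  rcases hw a with h1 | ⟨h1, h2⟩
  · rw [h1]; exact h a
  · have h3 := h a
    have h4 := lo_even n a
    have h5 := hi_even n a
    have h6 := abs_le.1 h2
    obtain ⟨k, hk⟩ := h1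
    obtain ⟨l, hl⟩ := h4
    obtain ⟨l', hl'⟩ := h5
    constructor <;> omega

lemma Bx.bounds {n : ℕ} {v : Option (Ix N) → ℤ} (h : Bx n v) :
    (0 ≤ v none ∧ v none ≤ 2 * n) ∧ (∀ p, -(2 * (n : ℤ)) ≤ v (some p) ∧ v (some p) ≤ 2 * n) ∧
      ∀ i, 0 ≤ v (some (dgi i)) := by
  refine ⟨h none, fun p => ⟨?_, (h (some p)).2⟩, fun i => ?_⟩
  · have h1 := (h (some p)).1
    unfold lo at h1
    dsimp only at h1
    split_ifs at h1 <;> omega
  · have h1 := (h (some (dgi i))).1
    unfold lo at h1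
    dsimp only at h1
    rwa [if_pos (show dgi i = dgi (dgi i).fst from rfl)] at h1

/-- the compact set of points -/
def KK (N : ℕ) (R : ℝ) : Set (ℝ × (Ix N → ℝ)) := Set.Icc 0 3 ×ˢ Metric.closedBall 0 R

lemma pt_mem {n : ℕ} (hn : 0 < n) {R : ℝ} (hR : 0 < R) {v : Option (Ix N) → ℤ} (h : Bx n v) :
    pt n R v ∈ KK N R := by
  obtain ⟨h1, h2, h3⟩ := h.bounds
  have hn' : (0 : ℝ) < 2 * n := by positivity
  have h1a : (0 : ℝ) ≤ (v none : ℝ) := by exact_mod_cast h1.1
  have h1b : (v none : ℝ) ≤ 2 * n := by exact_mod_cast h1.2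
  refine ⟨⟨?_, ?_⟩, ?_⟩
  · show 0 ≤ 3 * (v none : ℝ) / (2 * n)
    positivity
  · show 3 * (v none : ℝ) / (2 * n) ≤ 3
    rw [div_le_iff₀ hn']; linarith
  · rw [mem_closedBall_zero_iff, pi_norm_le_iff_of_nonneg hR.le]
    intro p
    show ‖R * (v (some p) : ℝ) / (2 * n)‖ ≤ R
    have h4 : |(v (some p) : ℝ)| ≤ 2 * n := by
      rw [abs_le]
      constructor
      · have := (h2 p).1
        exact_mod_cast this
      · have := (h2 p).2
        exact_mod_cast this
    rw [Real.norm_eq_abs, abs_div, abs_mul, abs_of_pos hR, abs_of_pos hn', div_le_iff₀ hn']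
    exact mul_le_mul_of_nonneg_left h4 hR.le

lemma pt_diag {n : ℕ} {R : ℝ} (hR : 0 < R) {v : Option (Ix N) → ℤ} (h : Bx n v)
    (i : Fin N) : 0 ≤ (pt n R v).2 (dgi i) := by
  have h3 : (0 : ℝ) ≤ (v (some (dgi i)) : ℝ) := by exact_mod_cast h.bounds.2.2 i
  show 0 ≤ R * (v (some (dgi i)) : ℝ) / (2 * n)
  positivity

lemma pt_dist {n : ℕ} (hn : 0 < n) {R : ℝ} (hR : 0 < R) {v w : Option (Ix N) → ℤ}
    (h : ∀ a, |v a - w a| ≤ 2) : dist (pt n R v) (pt n R w) ≤ max R 3 / n := by
  have hn' : (0 : ℝ) < n := by exact_mod_cast hn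
  have h' : ∀ a, |(v a : ℝ) - (w a : ℝ)| ≤ 2 := by
    intro a
    exact_mod_cast h a
  have h3 : max R 3 / n ≥ 0 := by positivity
  rw [Prod.dist_eq]
  apply max_le
  · show dist (3 * (v none : ℝ) / (2 * n)) (3 * (w none : ℝ) / (2 * n)) ≤ _
    rw [Real.dist_eq, ← sub_div, ← mul_sub, abs_div, abs_mul, abs_of_pos (by norm_num : (0:ℝ) < 3),
      abs_of_pos (by positivity : (0:ℝ) < 2 * n), div_le_div_iff₀ (by positivity) hn']
    have h4 := h' none
    have h5 := le_max_right R 3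
    have h6 := abs_nonneg ((v none : ℝ) - (w none : ℝ))
    nlinarith [mul_le_mul_of_nonneg_left h4 (by positivity : (0:ℝ) ≤ 3 * n),
      mul_le_mul_of_nonneg_right h5 (by positivity : (0:ℝ) ≤ 2 * n)]
  · rw [dist_pi_le_iff h3]
    intro p
    show dist (R * (v (some p) : ℝ) / (2 * n)) (R * (w (some p) : ℝ) / (2 * n)) ≤ _
    rw [Real.dist_eq, ← sub_div, ← mul_sub, abs_div, abs_mul, abs_of_pos hR,
      abs_of_pos (by positivity : (0:ℝ) < 2 * n), div_le_div_iff₀ (by positivity) hn']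
    have h4 := h' (some p)
    have h5 := le_max_left R 3
    nlinarith [mul_le_mul_of_nonneg_left h4 (by positivity : (0:ℝ) ≤ R * n),
      mul_le_mul_of_nonneg_right h5 (by positivity : (0:ℝ) ≤ 2 * n)]

/-- vanishing near a point where `F` is large -/
lemma II_van {n : ℕ} (hn : 0 < n) {R : ℝ} (hR : 0 < R) {F : ℝ → (Ix N → ℝ) → (Ix N → ℝ)}
    {δ η : ℝ} (hδ : 0 < δ)
    (hη : ∀ a ∈ KK N R, ∀ b ∈ KK N R, dist a b < η → dist (F a.1 a.2) (F b.1 b.2) < δ)
    (hnη : max R 3 / n < η) {u w0 : Option (Ix N) → ℤ} (hu : Bx n u) (hw0 : InC u w0)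
    (hF : δ ≤ ‖F (pt n R w0).1 (pt n R w0).2‖) :
    II (labk n R F) (Fintype.card (Ix N)) u = 0 := by
  obtain ⟨p, hp⟩ : ∃ p, δ ≤ |F (pt n R w0).1 (pt n R w0).2 p| := by
    by_contra hcon
    push Not at hcon
    have h1 : ‖F (pt n R w0).1 (pt n R w0).2‖ < δ :=
      (pi_norm_lt_iff hδ).2 fun p => by rw [Real.norm_eq_abs]; exact hcon p
    linarith
  have key : ∀ w, InC u w →
      |F (pt n R w).1 (pt n R w).2 p - F (pt n R w0).1 (pt n R w0).2 p| < δ := by
    intro w hw
    have h1 : dist (pt n R w) (pt n R w0) < η := by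
      refine lt_of_le_of_lt (pt_dist hn hR fun a => ?_) hnη
      have h2 := abs_le.1 (hw.abs_le a)
      have h3 := abs_le.1 (hw0.abs_le a)
      rw [abs_le]
      constructor <;> omega
    have h2 := hη _ (pt_mem hn hR (hu.inC hw)) _ (pt_mem hn hR (hu.inC hw0)) h1
    rw [← Real.dist_eq]
    exact lt_of_le_of_lt (dist_le_pi_dist _ _ p) h2
  have hk : ((Fintype.equivFin (Ix N)) p).val < Fintype.card (Ix N) :=
    ((Fintype.equivFin (Ix N)) p).isLt
  refine II_eq_zero (j := ((Fintype.equivFin (Ix N)) p).val) hk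
    (c := if 0 < F (pt n R w0).1 (pt n R w0).2 p then 0 else 1) ?_
  intro w hw
  unfold labk
  rw [dif_pos hk]
  simp only [Fin.eta, Equiv.symm_apply_apply]
  have h1 := abs_lt.1 (key w hw)
  unfold lab
  rcases le_abs'.1 hp with h2 | h2
  · rw [if_pos (by linarith [h1.2]), if_neg (by linarith)]
  · rw [if_neg (by linarith [h1.1]), if_pos (by linarith [h1.1]), if_pos (by linarith)]

/-! ### the forbidden set -/

/-- the set where `F` has no zeros -/
def ZZ (N : ℕ) (R : ℝ) : Set (ℝ × (Ix N → ℝ)) :=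
  (⋂ i : Fin N, {q | 0 ≤ q.2 (dgi i)}) ∩ ({q | ‖q.2‖ = R} ∪
    (({q | q.1 ≤ 2} ∩ ⋃ i : Fin N, {q | q.2 (dgi i) = 0}) ∪
      (({q | 2 ≤ q.1} ∩ ⋃ i : Fin N, ⋂ p : Ix N, ⋂ _ : p.1 = i, {q | q.2 p = 0}) ∪ {q | q.1 = 3})))

lemma isClosed_ZZ (N : ℕ) (R : ℝ) : IsClosed (ZZ N R) := by
  unfold ZZ
  refine IsClosed.inter (isClosed_iInter fun i => ?_) (IsClosed.union ?_ (IsClosed.union ?_
    (IsClosed.union ?_ ?_)))
  · exact isClosed_le continuous_const (by fun_prop)
  · exact isClosed_eq (by fun_prop) continuous_const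
  · exact (isClosed_le (by fun_prop) continuous_const).inter
      (isClosed_iUnion_of_finite fun i => isClosed_eq (by fun_prop) continuous_const)
  · exact (isClosed_le continuous_const (by fun_prop)).inter
      (isClosed_iUnion_of_finite fun i => isClosed_iInter fun p => isClosed_iInter fun _ =>
        isClosed_eq (by fun_prop) continuous_const)
  · exact isClosed_eq (by fun_prop) continuous_const

lemma ZZ_outer {R : ℝ} {q : ℝ × (Ix N → ℝ)} (h : ∀ i, 0 ≤ q.2 (dgi i)) (h1 : ‖q.2‖ = R) :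
    q ∈ ZZ N R := ⟨Set.mem_iInter.2 h, Or.inl h1⟩

lemma ZZ_wall {R : ℝ} {q : ℝ × (Ix N → ℝ)} (h : ∀ i, 0 ≤ q.2 (dgi i)) (h1 : q.1 ≤ 2) (i : Fin N)
    (h2 : q.2 (dgi i) = 0) : q ∈ ZZ N R :=
  ⟨Set.mem_iInter.2 h, Or.inr (Or.inl ⟨h1, Set.mem_iUnion.2 ⟨i, h2⟩⟩)⟩

lemma ZZ_row {R : ℝ} {q : ℝ × (Ix N → ℝ)} (h : ∀ i, 0 ≤ q.2 (dgi i)) (i : Fin N)
    (h2 : ∀ p : Ix N, p.1 = i → q.2 p = 0) : q ∈ ZZ N R := by
  rcases le_total q.1 2 with h1 | h1
  · exact ZZ_wall h h1 i (h2 _ rfl)
  · exact ⟨Set.mem_iInter.2 h, Or.inr (Or.inr (Or.inl ⟨h1, Set.mem_iUnion.2 ⟨i,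
      Set.mem_iInter.2 fun p => Set.mem_iInter.2 fun hp => h2 p hp⟩⟩))⟩

lemma ZZ_end {R : ℝ} {q : ℝ × (Ix N → ℝ)} (h : ∀ i, 0 ≤ q.2 (dgi i)) (h1 : q.1 = 3) :
    q ∈ ZZ N R := ⟨Set.mem_iInter.2 h, Or.inr (Or.inr (Or.inr h1))⟩

/-! ### facets -/

lemma facet {n : ℕ} {a : Option (Ix N)} {t : ℤ} {u : Option (Ix N) → ℤ}
    (h : u ∈ Fintype.piFinset (Function.update (fun b => oi (lo n b) (hi n b)) a {t})) :
    u a = t ∧ ∀ b, b ≠ a → (lo n b < u b ∧ u b < hi n b) ∧ Odd (u b) := by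
  rw [Fintype.mem_piFinset] at h
  refine ⟨by simpa using h a, fun b hb => ?_⟩
  have := h b
  rw [Function.update_of_ne hb] at this
  exact mem_oi.1 this

lemma facet_Bx {n : ℕ} {a : Option (Ix N)} {t : ℤ} {u : Option (Ix N) → ℤ}
    (h : u ∈ Fintype.piFinset (Function.update (fun b => oi (lo n b) (hi n b)) a {t}))
    (ht : lo n a ≤ t ∧ t ≤ hi n a) : Bx n u := by
  obtain ⟨h1, h2⟩ := facet h
  intro b
  by_cases hb : b = a
  · rw [hb, h1]; exact ht
  · exact ⟨(h2 b hb).1.1.le, (h2 b hb).1.2.le⟩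

/-- hypotheses on `n`, `R`, `F`, `δ`, `η` -/
structure Hy (n : ℕ) (R : ℝ) (F : ℝ → (Ix N → ℝ) → (Ix N → ℝ)) (δ η : ℝ) : Prop where
  hn : 0 < n
  hR : 0 < R
  hδ : 0 < δ
  hη : ∀ a ∈ KK N R, ∀ b ∈ KK N R, dist a b < η → dist (F a.1 a.2) (F b.1 b.2) < δ
  hnη : max R 3 / n < η
  hZ : ∀ q ∈ KK N R, q ∈ ZZ N R → δ ≤ ‖F q.1 q.2‖

lemma Hy.van {n : ℕ} {R : ℝ} {F : ℝ → (Ix N → ℝ) → (Ix N → ℝ)} {δ η : ℝ} (H : Hy n R F δ η)
    {u w0 : Option (Ix N) → ℤ} (hu : Bx n u) (hw0 : InC u w0) (hz : pt n R w0 ∈ ZZ N R) :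
    II (labk n R F) (Fintype.card (Ix N)) u = 0 :=
  II_van H.hn H.hR H.hδ H.hη H.hnη hu hw0 (H.hZ _ (pt_mem H.hn H.hR (hu.inC hw0)) hz)

lemma Hy.outer {n : ℕ} {R : ℝ} {F : ℝ → (Ix N → ℝ) → (Ix N → ℝ)} {δ η : ℝ} (H : Hy n R F δ η)
    (p : Ix N) {t : ℤ} (ht : |t| = 2 * n) (ht' : lo n (some p) ≤ t ∧ t ≤ hi n (some p)) :
    SA (fun b => oi (lo n b) (hi n b)) (II (labk n R F) (Fintype.card (Ix N))) (some p) t = 0 := by
  refine Finset.sum_eq_zero fun u hu => ?_
  have hB := facet_Bx hu ht'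
  refine H.van hB (InC.self u) (ZZ_outer (pt_diag H.hR hB) ?_)
  have h1 := (pt_mem H.hn H.hR hB).2
  rw [mem_closedBall_zero_iff] at h1
  refine le_antisymm h1 ?_
  have h2 := norm_le_pi_norm (pt n R u).2 p
  refine le_trans (le_of_eq ?_) h2
  show R = ‖R * (u (some p) : ℝ) / (2 * n)‖
  have hn' : (0 : ℝ) < n := by exact_mod_cast H.hn
  have h3 : |(u (some p) : ℝ)| = 2 * n := by
    rw [(facet hu).1]
    exact_mod_cast ht
  rw [Real.norm_eq_abs, abs_div, abs_mul, h3, abs_of_pos H.hR,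
    abs_of_pos (by positivity : (0 : ℝ) < 2 * n)]
  field_simp

lemma Hy.top {n : ℕ} {R : ℝ} {F : ℝ → (Ix N → ℝ) → (Ix N → ℝ)} {δ η : ℝ} (H : Hy n R F δ η) :
    SA (fun b => oi (lo n b) (hi n b)) (II (labk n R F) (Fintype.card (Ix N))) none (2 * n) = 0 := by
  refine Finset.sum_eq_zero fun u hu => ?_
  have hB := facet_Bx hu ⟨lo_le_hi n none, le_rfl⟩
  refine H.van hB (InC.self u) (ZZ_end (pt_diag H.hR hB) ?_)
  show 3 * (u none : ℝ) / (2 * n) = 3
  have hn' : (0 : ℝ) < n := by exact_mod_cast H.hn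
  rw [(facet hu).1]
  push_cast
  field_simp

/-! ### walls -/

/-- the coordinates of the row `j` -/
noncomputable def Sj (j : Fin N) : Finset (Option (Ix N)) :=
  (univ.filter fun p : Ix N => p.1 = j).map Function.Embedding.some

lemma rS_none (j : Fin N) (v : Option (Ix N) → ℤ) : rfl' (Sj j) v none = v none := by
  unfold rfl' Sj
  simp

lemma rS_some (j : Fin N) (v : Option (Ix N) → ℤ) (p : Ix N) :
    rfl' (Sj j) v (some p) = if p.1 = j then - v (some p) else v (some p) := by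
  unfold rfl' Sj
  simp

lemma pt_rS (n : ℕ) (R : ℝ) (j : Fin N) (v : Option (Ix N) → ℤ) :
    pt n R (rfl' (Sj j) v) = ((pt n R v).1, rowN j (pt n R v).2) := by
  refine Prod.ext ?_ ?_
  · show 3 * ((rfl' (Sj j) v none : ℤ) : ℝ) / (2 * n) = 3 * (v none : ℝ) / (2 * n)
    rw [rS_none]
  · funext p
    show R * ((rfl' (Sj j) v (some p) : ℤ) : ℝ) / (2 * n)
      = if p.1 = j then -(R * (v (some p) : ℝ) / (2 * n)) else R * (v (some p) : ℝ) / (2 * n)
    rw [rS_some]
    split_ifs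
    · push_cast; ring
    · rfl

lemma rowv_rS (i j : Fin N) (v : Option (Ix N) → ℤ) :
    rowv i (rfl' (Sj j) v) = if i = j then - rowv i v else rowv i v := by
  funext l
  unfold rowv
  rw [rS_some]
  split_ifs with h
  · rfl
  · rfl

lemma tau_rS {j : Fin N} {v : Option (Ix N) → ℤ} (hv : rowv j v ≠ 0) (i : Fin N) :
    tau (rowv i (rfl' (Sj j) v)) = tau (rowv i v) + if i = j then 1 else 0 := by
  rw [rowv_rS]
  split_ifs with h
  · subst h
    exact tau_neg _ hv
  · rw [add_zero]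

lemma lab_rS {n : ℕ} {R : ℝ} {F : ℝ → (Ix N → ℝ) → (Ix N → ℝ)}
    (hsym : ∀ t, 1 ≤ t → ∀ j w p,
      F t (rowN j w) p = if (p.1 = j ↔ col p = j) then F t w p else - F t w p)
    {j : Fin N} {v : Option (Ix N) → ℤ} (hv : rowv j v ≠ 0) (hv0 : 0 < v none)
    (hv1 : 1 ≤ (pt n R v).1) (p : Ix N) :
    lab n R F p (rfl' (Sj j) v)
      = lab n R F p v + if (p.1 = j ↔ col p = j) then 0 else 1 := by
  unfold lab
  rw [pt_rS, rS_none, tau_rS hv, tau_rS hv]
  simp only [hsym _ hv1]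
  by_cases h : (p.1 = j ↔ col p = j)
  · simp only [if_pos h, add_zero]
    have e : (if p.1 = j then (1 : ZMod 2) else 0) + (if col p = j then 1 else 0) = 0 := by
      by_cases h1 : p.1 = j
      · rw [if_pos h1, if_pos (h.1 h1)]; decide
      · rw [if_neg h1, if_neg (fun h2 => h1 (h.2 h2))]; decide
    have e2 : (tau (rowv p.1 v) + if p.1 = j then (1 : ZMod 2) else 0)
        + (tau (rowv (col p) v) + if col p = j then 1 else 0)
        = tau (rowv p.1 v) + tau (rowv (col p) v)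
          + ((if p.1 = j then (1 : ZMod 2) else 0) + (if col p = j then 1 else 0)) := by ring
    rw [e2, e, add_zero]
  · simp only [if_neg h, if_pos hv0]
    have e : (if p.1 = j then (1 : ZMod 2) else 0) + (if col p = j then 1 else 0) = 1 := by
      by_cases h1 : p.1 = j
      · by_cases h2 : col p = j
        · exact absurd ⟨fun _ => h2, fun _ => h1⟩ h
        · rw [if_pos h1, if_neg h2]; decide
      · by_cases h2 : col p = j
        · rw [if_neg h1, if_pos h2]; decide
        · exact absurd ⟨fun h3 => absurd h3 h1, fun h3 => absurd h3 h2⟩ h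
    have e2 : (tau (rowv p.1 v) + if p.1 = j then (1 : ZMod 2) else 0)
        + (tau (rowv (col p) v) + if col p = j then 1 else 0)
        = tau (rowv p.1 v) + tau (rowv (col p) v)
          + ((if p.1 = j then (1 : ZMod 2) else 0) + (if col p = j then 1 else 0)) := by ring
    rw [e2, e]
    rcases lt_trichotomy (F (pt n R v).1 (pt n R v).2 p) 0 with h1 | h1 | h1
    · rw [if_neg (by linarith), if_pos (by linarith), if_pos h1]; decide
    · rw [h1]; simp
    · rw [if_pos (by linarith), if_neg (by linarith), if_pos h1]; decide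

lemma Hy.wall {n : ℕ} {R : ℝ} {F : ℝ → (Ix N → ℝ) → (Ix N → ℝ)} {δ η : ℝ} (H : Hy n R F δ η)
    (hsym : ∀ t, 1 ≤ t → ∀ j w p,
      F t (rowN j w) p = if (p.1 = j ↔ col p = j) then F t w p else - F t w p) (j : Fin N) :
    SA (fun b => oi (lo n b) (hi n b)) (II (labk n R F) (Fintype.card (Ix N)))
      (some (dgi j)) 0 = 0 := by
  have hlo : lo n (some (dgi j)) = 0 := by
    unfold lo
    dsimp only
    rw [if_pos (show dgi j = dgi (dgi j).fst from rfl)]
  have hhi : (0 : ℤ) ≤ hi n (some (dgi j)) := by unfold hi; omega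
  have hw0 : ∀ (u w : Option (Ix N) → ℤ), u (some (dgi j)) = 0 → InC u w →
      (pt n R w).2 (dgi j) = 0 := by
    intro u w hu hw
    have h1 : w (some (dgi j)) = 0 := by
      rw [hw.of_even (by rw [hu]; exact Even.zero), hu]
    show R * (w (some (dgi j)) : ℝ) / (2 * n) = 0
    rw [h1]; simp
  -- the reflected facet
  have hmem : ∀ u ∈ Fintype.piFinset (Function.update (fun b => oi (lo n b) (hi n b))
      (some (dgi j)) {0}), rfl' (Sj j) u ∈ Fintype.piFinset (Function.update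
        (fun b => oi (lo n b) (hi n b)) (some (dgi j)) {0}) := by
    intro u hu
    obtain ⟨h1, h2⟩ := facet hu
    rw [Fintype.mem_piFinset]
    intro b
    by_cases hb : b = some (dgi j)
    · subst hb
      rw [Function.update_self, rS_some, h1]
      simp
    · rw [Function.update_of_ne hb]
      have h3 := h2 b hb
      rcases b with _ | p
      · rw [rS_none]; exact mem_oi.2 h3
      · rw [rS_some]
        split_ifs with hp
        · rw [mem_oi]
          have hp2 : p ≠ dgi p.1 := by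
            intro h4
            apply hb
            rw [h4, hp]
          have h5 : lo n (some p) = -(2 * n) := by
            unfold lo
            dsimp only
            rw [if_neg hp2]
          rw [h5] at h3 ⊢
          unfold hi at h3 ⊢
          exact ⟨⟨by omega, by omega⟩, h3.2.neg⟩
        · exact mem_oi.2 h3
  have hinC : ∀ u w : Option (Ix N) → ℤ, InC u w → InC (rfl' (Sj j) u) (rfl' (Sj j) w) := by
    intro u w hw a
    rcases hw a with h1 | ⟨h1, h2⟩
    · left
      unfold rfl'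
      rw [h1]
    · right
      unfold rfl'
      split_ifs
      · refine ⟨h1.neg, ?_⟩
        rw [neg_sub_neg, abs_sub_comm]
        exact h2
      · exact ⟨h1, h2⟩
  have hinv : ∀ u ∈ Fintype.piFinset (Function.update (fun b => oi (lo n b) (hi n b))
      (some (dgi j)) {0}), II (labk n R F) (Fintype.card (Ix N)) (rfl' (Sj j) u)
        = II (labk n R F) (Fintype.card (Ix N)) u := by
    intro u hu
    have hB := facet_Bx hu ⟨hlo.le, hhi⟩
    have hB' := facet_Bx (hmem u hu) ⟨hlo.le, hhi⟩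
    by_cases hcase : ∃ w, InC u w ∧ ((pt n R w).1 ≤ 2 ∨ rowv j w = 0)
    · obtain ⟨w, hw, hw2⟩ := hcase
      have hBw := hB.inC hw
      have hBw' := hB'.inC (hinC u w hw)
      rcases hw2 with hw2 | hw2
      · rw [H.van hB hw (ZZ_wall (pt_diag H.hR hBw) hw2 j (hw0 u w (facet hu).1 hw)),
          H.van hB' (hinC u w hw) (ZZ_wall (pt_diag H.hR hBw') (by rw [pt_rS]; exact hw2) j
            (hw0 _ _ (facet (hmem u hu)).1 (hinC u w hw)))]
      · have h3 : ∀ p : Ix N, p.1 = j → w (some p) = 0 := by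
          rintro ⟨i, l⟩ hp
          dsimp only at hp
          subst hp
          exact congrFun hw2 l
        rw [H.van hB hw (ZZ_row (pt_diag H.hR hBw) j fun p hp => by
            show R * (w (some p) : ℝ) / (2 * n) = 0
            rw [h3 p hp]; simp),
          H.van hB' (hinC u w hw) (ZZ_row (pt_diag H.hR hBw') j fun p hp => by
            show R * ((rfl' (Sj j) w (some p) : ℤ) : ℝ) / (2 * n) = 0
            rw [rS_some, if_pos hp, h3 p hp]; simp)]
    · push Not at hcase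
      refine II_rfl' (Sj j) (fun k => if h : k < Fintype.card (Ix N) then
        (if (((Fintype.equivFin (Ix N)).symm ⟨k, h⟩).1 = j ↔
          col ((Fintype.equivFin (Ix N)).symm ⟨k, h⟩) = j) then 0 else 1) else 0) ?_
      intro k hk w hw
      obtain ⟨h1, h2⟩ := hcase w hw
      unfold labk
      rw [dif_pos hk, dif_pos hk, dif_pos hk]
      refine lab_rS hsym h2 ?_ (by linarith) _
      by_contra h3
      push Not at h3
      have h4 : (w none : ℝ) ≤ 0 := by exact_mod_cast h3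
      have h5 : (pt n R w).1 ≤ 0 := by
        show 3 * (w none : ℝ) / (2 * n) ≤ 0
        apply div_nonpos_of_nonpos_of_nonneg
        · linarith
        · positivity
      linarith
  refine Finset.sum_involution (fun u _ => rfl' (Sj j) u) ?_ ?_ ?_ ?_
  · intro u hu
    rw [hinv u hu]
    exact z2 _
  · intro u hu hne heq
    apply hne
    have hB := facet_Bx hu ⟨hlo.le, hhi⟩
    refine H.van hB (InC.self u) (ZZ_row (pt_diag H.hR hB) j fun p hp => ?_)
    have h1 := congrFun heq (some p)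
    rw [rS_some, if_pos hp] at h1
    have h2 : u (some p) = 0 := by omega
    show R * (u (some p) : ℝ) / (2 * n) = 0
    rw [h2]; simp
  · intro u hu
    exact hmem u hu
  · intro u _
    funext a
    unfold rfl'
    split_ifs <;> simp

/-! ### time 0 -/

open Classical in
/-- the decoupled labels -/
noncomputable def bb (n : ℕ) (R c : ℝ) (p : Ix N) (x : ℤ) : ZMod 2 :=
  if (if p = dgi p.1 then 1 - c * (R * (x : ℝ) / (2 * n)) ^ 2 else -(R * (x : ℝ) / (2 * n))) < 0
  then 1 else 0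

lemma bottom {n : ℕ} (hn : 0 < n) {R c : ℝ} (hR : 0 < R) (hcR : 1 < c * R ^ 2)
    {F : ℝ → (Ix N → ℝ) → (Ix N → ℝ)}
    (hF0 : ∀ w p, F 0 w p = if p = dgi p.1 then 1 - c * w p ^ 2 else - w p) :
    SA (fun b => oi (lo n b) (hi n b)) (II (labk n R F) (Fintype.card (Ix N))) none 0 = 1 := by
  have hn' : (0 : ℝ) < n := by exact_mod_cast hn
  set D := Fintype.card (Ix N) with hD
  set e := (Fintype.equivFin (Ix N)).symm with he
  set cc : ℕ → Option (Ix N) := fun k => if h : k < D then some (e ⟨k, h⟩) else none with hcc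
  set bk : ℕ → ℤ → ZMod 2 := fun k x => if h : k < D then bb n R c (e ⟨k, h⟩) x else 0 with hbk
  have hval : ∀ u ∈ Fintype.piFinset (Function.update (fun b => oi (lo n b) (hi n b)) none {0}),
      II (labk n R F) D u
        = ∏ a : Option (Ix N), (match a with
          | none => fun _ => (1 : ZMod 2)
          | some p => fun x => bb n R c p (x + 1) + bb n R c p (x - 1)) (u a) := by
    intro u hu
    obtain ⟨h1, h2⟩ := facet hu
    rw [II_decoupled bk cc]
    · rw [Fintype.prod_option, one_mul, Finset.prod_range]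
      rw [← Equiv.prod_comp e]
      refine Finset.prod_congr rfl fun k _ => ?_
      simp only [hcc, hbk, k.isLt, dif_pos, Fin.eta]
    · intro i hi j hj hij
      simp only [hcc, dif_pos hi, dif_pos hj] at hij
      have h3 := e.injective (Option.some_injective _ hij)
      exact congrArg Fin.val h3
    · ext a
      rw [mem_odds, mem_image]
      constructor
      · intro ha
        rcases a with _ | p
        · rw [h1] at ha
          exact absurd ha (by decide)
        · have hlt : (e.symm p).val < D := (e.symm p).isLt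
          refine ⟨(e.symm p).val, Finset.mem_range.2 hlt, ?_⟩
          simp only [hcc, dif_pos hlt, Fin.eta, Equiv.apply_symm_apply]
      · rintro ⟨k, hk, rfl⟩
        have hk' : k < D := by simpa using hk
        simp only [hcc, dif_pos hk']
        exact (h2 _ (by simp)).2
    · intro k hk w hw
      have hw0 : w none = 0 := by
        rw [hw.of_even (by rw [h1]; exact Even.zero), h1]
      simp only [hcc, hbk, dif_pos hk]
      unfold labk
      rw [dif_pos hk]
      unfold lab bb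
      have e1 : (pt n R w).1 = 0 := by
        show 3 * (w none : ℝ) / (2 * n) = 0
        rw [hw0]; simp
      rw [e1, hF0, hw0]
      have e2 : (pt n R w).2 (e ⟨k, hk⟩) = R * (w (some (e ⟨k, hk⟩)) : ℝ) / (2 * n) := rfl
      rw [e2]
      rw [if_neg (lt_irrefl (0 : ℤ))]
      simp only [ite_self]
      rfl
  unfold SA
  rw [Finset.sum_congr rfl hval]
  rw [← Finset.prod_univ_sum, Fintype.prod_option]
  rw [Function.update_self, Finset.sum_singleton, one_mul]
  refine Finset.prod_eq_one fun p _ => ?_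
  rw [Function.update_of_ne (by simp)]
  rw [tele (bb n R c p) (lo_even n _) (hi_even n _) (lo_le_hi n _)]
  unfold bb lo hi
  dsimp only
  by_cases hp : p = dgi p.1
  · simp only [if_pos hp]
    have e1 : R * (((2 * (n : ℤ) : ℤ)) : ℝ) / (2 * n) = R := by
      push_cast
      field_simp
    rw [e1, if_pos (by linarith)]
    simp
  · simp only [if_neg hp]
    have e1 : R * (((2 * (n : ℤ) : ℤ)) : ℝ) / (2 * n) = R := by
      push_cast
      field_simp
    have e2 : R * (((-(2 * (n : ℤ)) : ℤ)) : ℝ) / (2 * n) = -R := by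
      push_cast
      field_simp
    rw [e1, e2, if_pos (by linarith), if_neg (by linarith)]
    simp

/-! ### conclusion -/

theorem no_zero_absurd {R c : ℝ} {F : ℝ → (Ix N → ℝ) → (Ix N → ℝ)} (hR : 0 < R)
    (hcR : 1 < c * R ^ 2) (hF : Continuous (fun q : ℝ × (Ix N → ℝ) => F q.1 q.2))
    (hF0 : ∀ w p, F 0 w p = if p = dgi p.1 then 1 - c * w p ^ 2 else - w p)
    (hF1 : ∀ t ∈ Set.Icc (0 : ℝ) 2, ∀ w, (∀ i, 0 ≤ w (dgi i)) → F t w = 0 →
      (∀ i, 0 < w (dgi i)) ∧ ‖w‖ ≠ R)
    (hF2 : ∀ t ∈ Set.Icc (2 : ℝ) 3, ∀ w, F t w = 0 →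
      ‖w‖ ≠ R ∧ ∀ i, ∃ p : Ix N, p.1 = i ∧ w p ≠ 0)
    (hF3 : ∀ t, 1 ≤ t → ∀ j w p,
      F t (rowN j w) p = if (p.1 = j ↔ col p = j) then F t w p else - F t w p)
    (hF4 : ∀ w, F 3 w ≠ 0) : False := by
  have hK : IsCompact (KK N R) := isCompact_Icc.prod (isCompact_closedBall 0 R)
  have hKZ : IsCompact (KK N R ∩ ZZ N R) := hK.inter_right (isClosed_ZZ N R)
  have hne : ∀ q ∈ KK N R ∩ ZZ N R, 0 < ‖F q.1 q.2‖ := by
    rintro ⟨t, w⟩ ⟨hq, hz⟩
    rw [norm_pos_iff]
    intro h0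
    dsimp only at h0
    obtain ⟨⟨ht0, ht3⟩, -⟩ := hq
    dsimp only at ht0 ht3
    obtain ⟨hz1, hz2⟩ := hz
    rw [Set.mem_iInter] at hz1
    have hz1' : ∀ i, 0 ≤ w (dgi i) := hz1
    rcases hz2 with h | ⟨h, h'⟩ | ⟨h, h'⟩ | h
    · have h' : ‖w‖ = R := h
      rcases le_total t 2 with h2 | h2
      · exact (hF1 t ⟨ht0, h2⟩ w hz1' h0).2 h'
      · exact (hF2 t ⟨h2, ht3⟩ w h0).1 h'
    · obtain ⟨i, hi⟩ := Set.mem_iUnion.1 h'
      have hi' : w (dgi i) = 0 := hi
      have := (hF1 t ⟨ht0, h⟩ w hz1' h0).1 i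
      linarith
    · obtain ⟨i, hi⟩ := Set.mem_iUnion.1 h'
      obtain ⟨p, hp1, hp2⟩ := (hF2 t ⟨h, ht3⟩ w h0).2 i
      exact hp2 (Set.mem_iInter.1 (Set.mem_iInter.1 hi p) hp1)
    · have h' : t = 3 := h
      subst h'
      exact hF4 w h0
  obtain ⟨δ, hδ, hδ2⟩ := hKZ.exists_forall_le' (hF.norm.continuousOn) hne
  have huc := hK.uniformContinuousOn_of_continuous hF.continuousOn
  rw [Metric.uniformContinuousOn_iff] at huc
  obtain ⟨η, hη, hη2⟩ := huc δ hδ
  obtain ⟨n, hn⟩ := exists_nat_gt (max R 3 / η)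
  have hmax : 0 < max R 3 := lt_max_of_lt_left hR
  have hn0 : (0 : ℝ) < n := lt_of_le_of_lt (by positivity) hn
  have H : Hy n R F δ η :=
    { hn := by exact_mod_cast hn0
      hR := hR
      hδ := hδ
      hη := hη2
      hnη := by
        rw [div_lt_iff₀ hη] at hn
        rw [div_lt_iff₀ hn0]
        linarith
      hZ := fun q hq hz => hδ2 q ⟨hq, hz⟩ }
  have hS := stokes (labk n R F) (Fintype.card (Ix N)) (m := lo n) (M := hi n)
    (lo_even n) (hi_even n) (lo_le_hi n)
  rw [Fintype.sum_option] at hS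
  have h1 : SA (fun b => oi (lo n b) (hi n b)) (II (labk n R F) (Fintype.card (Ix N)))
      none (hi n (none : Option (Ix N))) = 0 := H.top
  have h2 : SA (fun b => oi (lo n b) (hi n b)) (II (labk n R F) (Fintype.card (Ix N)))
      none (lo n (none : Option (Ix N))) = 1 := bottom H.hn hR hcR hF0
  have h3 : ∑ p : Ix N, (SA (fun b => oi (lo n b) (hi n b))
      (II (labk n R F) (Fintype.card (Ix N))) (some p) (hi n (some p))
      + SA (fun b => oi (lo n b) (hi n b)) (II (labk n R F) (Fintype.card (Ix N)))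
        (some p) (lo n (some p))) = 0 := by
    refine Finset.sum_eq_zero fun p _ => ?_
    have h4 : SA (fun b => oi (lo n b) (hi n b)) (II (labk n R F) (Fintype.card (Ix N)))
        (some p) (hi n (some p)) = 0 := by
      refine H.outer p ?_ ⟨lo_le_hi n _, le_rfl⟩
      unfold hi
      rw [abs_of_nonneg (by positivity)]
    have h5 : SA (fun b => oi (lo n b) (hi n b)) (II (labk n R F) (Fintype.card (Ix N)))
        (some p) (lo n (some p)) = 0 := by
      by_cases hp : p = dgi p.1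
      · have h6 : lo n (some p) = 0 := by
          unfold lo
          dsimp only
          rw [if_pos hp]
        rw [h6]
        have h7 := H.wall hF3 p.1
        rw [← hp] at h7
        exact h7
      · refine H.outer p ?_ ⟨le_rfl, lo_le_hi n _⟩
        unfold lo
        dsimp only
        rw [if_neg hp, abs_neg, abs_of_nonneg (by positivity)]
    rw [h4, h5, add_zero]
  rw [h1, h2, h3] at hS
  exact absurd hS (by decide)

/-- the topological theorem -/
theorem topo (hM : S_MODEL) (N : ℕ)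
    (P : ((i : Fin N) → Fin (i.val + 1) → ℝ) → Matrix (Fin N) (Fin N) ℝ)
    (hc : Continuous P) (hs : ∀ w, (P w).IsSymm)
    (heq : ∀ (s : Fin N → ℝ), (∀ i, s i = 1 ∨ s i = -1) → ∀ w i j,
      P (fun i l => s i * w i l) i j = s i * s j * P w i j)
    (h0 : ∀ w i, 0 ≤ P w i i) (hz : ∀ w i, w i = 0 → P w i i = 0)
    (hR : ∃ R : ℝ, ∀ w, R ≤ ‖w‖ → (N : ℝ) < (P w).trace) : ∃ w, P w = 1 := by
  rcases Nat.eq_zero_or_pos N with h | hN
  · subst h
    exact ⟨fun i => i.elim0, by ext i; exact i.elim0⟩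
  · obtain ⟨R, c, F, hR, _, hcR, hF, hF0, hF1, hF2, hF3, hF4⟩ :=
      hM N P hN hc hs heq h0 hz hR
    by_contra hcon
    exact no_zero_absurd hR hcR hF hF0 hF1 hF2 hF3 fun w hw => hcon (hF4 w hw)

end Vale.Agent.P371.Cube
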