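import Vale.Agent.P371H.Defs
import Vale.Agent.P371.Top.Topo
import Vale.Agent.P371.Top.Model

/-!
# P371, topology: the module `TOPO`
-/

namespace LTH

theorem topo_module : S_TOPO := fun n P hc hs heq h0 hz hR =>
  Vale.Agent.P371.Cube.topo Vale.Agent.P371.Cube.model n P hc hs heq h0 hz hR

end LTH
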